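import Vale.Agent.P184.Amen

/-!
P184, the l1 Bass conjecture: vanishing at undistorted classes with amenable centralizer.

`e` is an idempotent matrix over the Banach group algebra of absolutely summable functions
on the discrete group `G` (entries `e i j : G → ℂ`, product by convolution).  The sum
`∑' g : (ConjClasses.mk x).carrier, ∑ i, e i i g` is the Hattori-Stallings coefficient of `e`
at the conjugacy class of `x`.  `L` is any subadditive real function on `G` (for instance a word
length, or the displacement of a base point under an isometric action) and `x` is undistorted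
for it: `c * n ≤ L (x ^ n)` with `c > 0`.  The centralizer of `x` is amenable: `m` is a left
invariant mean on its bounded real functions (additive, monotone, normalised, invariant).
Then the coefficient vanishes.
-/

namespace Vale.Agent.Results.P184.A2Amenable

open scoped BigOperators

theorem result {G : Type*} [Group G] {ι : Type*} [Fintype ι]
    (e : ι → ι → G → ℂ) (hs : ∀ i j, Summable fun g => ‖e i j g‖)
    (he : ∀ i j g, ∑ k, ∑' h, e i k h * e k j (h⁻¹ * g) = e i j g)
    (L : G → ℝ) (hL : ∀ g h, L (g * h) ≤ L g + L h) (x : G) (c : ℝ) (hc : 0 < c)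
    (hund : ∀ n : ℕ, c * n ≤ L (x ^ n))
    (m : (Subgroup.centralizer ({x} : Set G) → ℝ) → ℝ)
    (hm_add : ∀ f g : Subgroup.centralizer ({x} : Set G) → ℝ, (∃ K, ∀ z, |f z| ≤ K) →
      (∃ K, ∀ z, |g z| ≤ K) → m (fun z => f z + g z) = m f + m g)
    (hm_mono : ∀ f g : Subgroup.centralizer ({x} : Set G) → ℝ, (∃ K, ∀ z, |f z| ≤ K) →
      (∃ K, ∀ z, |g z| ≤ K) → (∀ z, f z ≤ g z) → m f ≤ m g)
    (hm_const : ∀ r : ℝ, m (fun _ => r) = r)
    (hm_inv : ∀ f : Subgroup.centralizer ({x} : Set G) → ℝ, (∃ K, ∀ z, |f z| ≤ K) →
      ∀ w, m (fun z => f (w * z)) = m f) :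
    ∑' g : (ConjClasses.mk x).carrier, ∑ i, e i i g = 0 :=
  Vale.Agent.P184.amenable_raw e hs he L hL x c hc hund m hm_add hm_mono hm_const hm_inv

end Vale.Agent.Results.P184.A2Amenable
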