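import Vale.Agent.P184.Linear

/-!
P184, the l1 Bass conjecture: vanishing at classes detected by an eigenvalue off the unit circle
in a linear representation over a normed field.

`e` is an idempotent matrix over the Banach group algebra of absolutely summable functions
on the discrete group `G` (entries `e i j : G → ℂ`, product by convolution).  The sum
`∑' g : (ConjClasses.mk x).carrier, ∑ i, e i i g` is the Hattori-Stallings coefficient of `e`
at the conjugacy class of `x`.  `ρ` is a representation of `G` by square matrices over a normed
field `K` (real, complex, p-adic, ...; no boundedness or discreteness is assumed).  If `ρ x` has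
an eigenvector `v` with eigenvalue `lam` of absolute value different from `1`, the coefficient
vanishes.
-/

namespace Vale.Agent.Results.P184.A3Linear

open scoped BigOperators

theorem result {G : Type*} [Group G] {ι : Type*} [Fintype ι]
    (e : ι → ι → G → ℂ) (hs : ∀ i j, Summable fun g => ‖e i j g‖)
    (he : ∀ i j g, ∑ k, ∑' h, e i k h * e k j (h⁻¹ * g) = e i j g)
    {K : Type*} [NormedField K] {n : Type*} [Fintype n] [DecidableEq n]
    (ρ : G →* Matrix n n K) (x : G) (v : n → K) (hv : v ≠ 0) (lam : K)
    (hlam : (ρ x).mulVec v = lam • v) (hne : ‖lam‖ ≠ 1) :
    ∑' g : (ConjClasses.mk x).carrier, ∑ i, e i i g = 0 :=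
  Vale.Agent.P184.linear_raw e hs he ρ x v hv lam hlam hne

end Vale.Agent.Results.P184.A3Linear
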