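import Vale.Agent.P184.Length

/-!
P184, the l1 Bass conjecture, in full, for a class of groups.

Hypotheses on the discrete group `G`:
* `hfin`: the elements of finite order form finitely many conjugacy classes;
* `hinf`: for every `x` of infinite order there are a subadditive real function `L` on `G`
  (for instance a word length, or the displacement of a base point under an isometric action)
  and a function `φ`, additive on the centralizer of `x` and bounded there in absolute value
  by `L`, with `φ x ≠ 0`.

Conclusion: for every idempotent matrix `e` over the Banach group algebra of absolutely summable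
functions on `G` (entries `e i j : G → ℂ`, product by convolution) there is a finite set `F` of
conjugacy classes of finite order elements outside of which the Hattori-Stallings coefficients
`∑' g : C.carrier, ∑ i, e i i g` all vanish.
-/

namespace Vale.Agent.Results.P184.A4Class

open scoped BigOperators

theorem result {G : Type*} [Group G]
    (hfin : {C : ConjClasses G | ∃ x ∈ C.carrier, IsOfFinOrder x}.Finite)
    (hinf : ∀ x : G, ¬ IsOfFinOrder x → ∃ (L : G → ℝ) (φ : G → ℝ),
      (∀ g h, L (g * h) ≤ L g + L h) ∧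
      (∀ z w, Commute z x → Commute w x → φ (z * w) = φ z + φ w) ∧
      (∀ z, Commute z x → |φ z| ≤ L z) ∧ φ x ≠ 0)
    {ι : Type*} [Fintype ι]
    (e : ι → ι → G → ℂ) (hs : ∀ i j, Summable fun g => ‖e i j g‖)
    (he : ∀ i j g, ∑ k, ∑' h, e i k h * e k j (h⁻¹ * g) = e i j g) :
    ∃ F : Set (ConjClasses G), F.Finite ∧ (∀ C ∈ F, ∀ g ∈ C.carrier, IsOfFinOrder g) ∧
      ∀ C, C ∉ F → ∑' g : C.carrier, ∑ i, e i i g = 0 := by
  refine ⟨{C : ConjClasses G | ∃ x ∈ C.carrier, IsOfFinOrder x}, hfin, ?_, ?_⟩
  · rintro C ⟨x, hxC, hx⟩ g hg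
    have h1 : ConjClasses.mk x = C := ConjClasses.mem_carrier_iff_mk_eq.mp hxC
    have h2 : ConjClasses.mk g = C := ConjClasses.mem_carrier_iff_mk_eq.mp hg
    have h3 : IsConj x g := ConjClasses.mk_eq_mk_iff_isConj.mp (h1.trans h2.symm)
    obtain ⟨c, hc⟩ := isConj_iff.mp h3
    rw [← hc]
    rw [isOfFinOrder_iff_pow_eq_one] at hx ⊢
    obtain ⟨n, hn, hxn⟩ := hx
    exact ⟨n, hn, by rw [conj_pow, hxn, mul_one, mul_inv_cancel]⟩
  · intro C hC
    obtain ⟨x, rfl⟩ := ConjClasses.exists_rep C
    have hx : ¬ IsOfFinOrder x := fun h =>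
      hC ⟨x, ConjClasses.mem_carrier_iff_mk_eq.mpr rfl, h⟩
    obtain ⟨L, φ, hL, hadd, hdom, hφx⟩ := hinf x hx
    exact Vale.Agent.P184.length_raw e hs he L hL x φ hadd hdom hφx

end Vale.Agent.Results.P184.A4Class
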