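import Vale.Agent.Results.P184.A1Length
import Vale.Agent.Results.P184.A2Amenable
import Vale.Agent.Results.P184.A3Linear
import Vale.Agent.Results.P184.A4Class

/-! P184: four vanishing criteria for the Hattori-Stallings coefficients of an idempotent matrix
over the `ℓ¹` group algebra, stated together. -/

namespace Vale.Agent.Results.P184.A0AllParts

theorem result.{u1, u2, u3, u4} {G : Type u1} [Group G] {ι : Type u2} [Fintype ι]
    (e : ι → ι → G → ℂ) (hs : ∀ i j, Summable fun g => ‖e i j g‖)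
    (he : ∀ i j g, ∑ k, ∑' h, e i k h * e k j (h⁻¹ * g) = e i j g) :
    (∀ (L : G → ℝ), (∀ g h, L (g * h) ≤ L g + L h) → ∀ (x : G) (φ : G → ℝ),
      (∀ z w, Commute z x → Commute w x → φ (z * w) = φ z + φ w) →
      (∀ z, Commute z x → |φ z| ≤ L z) → φ x ≠ 0 →
      ∑' g : (ConjClasses.mk x).carrier, ∑ i, e i i g = 0) ∧
    (∀ (L : G → ℝ), (∀ g h, L (g * h) ≤ L g + L h) → ∀ (x : G) (c : ℝ), 0 < c →
      (∀ n : ℕ, c * n ≤ L (x ^ n)) →
      ∀ m : (Subgroup.centralizer ({x} : Set G) → ℝ) → ℝ,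
      (∀ f g : Subgroup.centralizer ({x} : Set G) → ℝ, (∃ K, ∀ z, |f z| ≤ K) →
        (∃ K, ∀ z, |g z| ≤ K) → m (fun z => f z + g z) = m f + m g) →
      (∀ f g : Subgroup.centralizer ({x} : Set G) → ℝ, (∃ K, ∀ z, |f z| ≤ K) →
        (∃ K, ∀ z, |g z| ≤ K) → (∀ z, f z ≤ g z) → m f ≤ m g) →
      (∀ r : ℝ, m (fun _ => r) = r) →
      (∀ f : Subgroup.centralizer ({x} : Set G) → ℝ, (∃ K, ∀ z, |f z| ≤ K) →
        ∀ w, m (fun z => f (w * z)) = m f) →
      ∑' g : (ConjClasses.mk x).carrier, ∑ i, e i i g = 0) ∧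
    (∀ (K : Type u3) [NormedField K] (n : Type u4) [Fintype n] [DecidableEq n]
      (ρ : G →* Matrix n n K) (x : G) (v : n → K), v ≠ 0 → ∀ lam : K,
      (ρ x).mulVec v = lam • v → ‖lam‖ ≠ 1 →
      ∑' g : (ConjClasses.mk x).carrier, ∑ i, e i i g = 0) ∧
    ({C : ConjClasses G | ∃ x ∈ C.carrier, IsOfFinOrder x}.Finite →
      (∀ x : G, ¬ IsOfFinOrder x → ∃ (L : G → ℝ) (φ : G → ℝ),
        (∀ g h, L (g * h) ≤ L g + L h) ∧
        (∀ z w, Commute z x → Commute w x → φ (z * w) = φ z + φ w) ∧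
        (∀ z, Commute z x → |φ z| ≤ L z) ∧ φ x ≠ 0) →
      ∃ F : Set (ConjClasses G), F.Finite ∧ (∀ C ∈ F, ∀ g ∈ C.carrier, IsOfFinOrder g) ∧
        ∀ C, C ∉ F → ∑' g : C.carrier, ∑ i, e i i g = 0) :=
  ⟨fun L hL x φ hadd hdom hx => A1Length.result e hs he L hL x φ hadd hdom hx,
    fun L hL x c hc hund m h1 h2 h3 h4 => A2Amenable.result e hs he L hL x c hc hund m h1 h2 h3 h4,
    fun _ _ _ _ _ ρ x v hv lam hlam hne => A3Linear.result e hs he ρ x v hv lam hlam hne,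
    fun hfin hinf => A4Class.result hfin hinf e hs he⟩

end Vale.Agent.Results.P184.A0AllParts
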