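import Vale.Agent.P184.Length

/-!
P184, the l1 Bass conjecture: vanishing at classes whose centralizer has a real character
dominated by a length function.

`e` is an idempotent matrix over the Banach group algebra of absolutely summable functions
on the discrete group `G` (entries `e i j : G → ℂ`, product by convolution).  The sum
`∑' g : (ConjClasses.mk x).carrier, ∑ i, e i i g` is the Hattori-Stallings coefficient of `e`
at the conjugacy class of `x`.  `L` is any subadditive real function on `G` (for instance a word
length, or the displacement of a base point under an isometric action).  If `φ` is additive on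
the centralizer of `x`, bounded there in absolute value by `L`, and `φ x ≠ 0`, the coefficient
vanishes.
-/

namespace Vale.Agent.Results.P184.A1Length

open scoped BigOperators

theorem result {G : Type*} [Group G] {ι : Type*} [Fintype ι]
    (e : ι → ι → G → ℂ) (hs : ∀ i j, Summable fun g => ‖e i j g‖)
    (he : ∀ i j g, ∑ k, ∑' h, e i k h * e k j (h⁻¹ * g) = e i j g)
    (L : G → ℝ) (hL : ∀ g h, L (g * h) ≤ L g + L h) (x : G) (φ : G → ℝ)
    (hadd : ∀ z w, Commute z x → Commute w x → φ (z * w) = φ z + φ w)
    (hdom : ∀ z, Commute z x → |φ z| ≤ L z) (hx : φ x ≠ 0) :
    ∑' g : (ConjClasses.mk x).carrier, ∑ i, e i i g = 0 :=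
  Vale.Agent.P184.length_raw e hs he L hL x φ hadd hdom hx

end Vale.Agent.Results.P184.A1Length
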