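import Vale.Agent.P184.Quasi
import Vale.Agent.P184.IndMain

/-!
P184, the l1 Bass conjecture: three vanishing criteria valid for every discrete group.

`e` is an idempotent matrix over the Banach group algebra of absolutely summable functions
on the discrete group `G` (entries `e i j : G → ℂ`, product by convolution).  The sum
`∑' g : (ConjClasses.mk x).carrier, ∑ i, e i i g` is the Hattori-Stallings coefficient of `e`
at the conjugacy class of `x`.
-/

namespace Vale.Agent.Results.P184.Criteria

open scoped BigOperators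

theorem result {G : Type*} [Group G] {ι : Type*} [Fintype ι]
    (e : ι → ι → G → ℂ) (hs : ∀ i j, Summable fun g => ‖e i j g‖)
    (he : ∀ i j g, ∑ k, ∑' h, e i k h * e k j (h⁻¹ * g) = e i j g) :
    (∀ (H : Subgroup G) [H.FiniteIndex], ∃ F : Set (Abelianization H), F.Finite ∧
        (∀ a ∈ F, IsOfFinOrder a) ∧ ∀ x : H, Abelianization.of x ∉ F →
          ∑' g : (ConjClasses.mk (x : G)).carrier, ∑ i, e i i g = 0) ∧
    (∀ (f : G → ℝ) (D : ℝ) (x : G), (∀ g h, |f (g * h) - f g - f h| ≤ D) →
        (∀ z w, Commute z x → Commute w x → f (z * w) = f z + f w) → f x ≠ 0 →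
          ∑' g : (ConjClasses.mk x).carrier, ∑ i, e i i g = 0) ∧
    (∀ (m : ℕ) (ρ : ℝ → G →* Matrix (Fin m) (Fin m) ℂ) (K : ℝ) (x : G) (s t : ℝ),
        (∀ r g a b, ‖ρ r g a b‖ ≤ K) → (∀ g a b, Continuous fun r => ρ r g a b) →
        Matrix.trace (ρ s x) ≠ Matrix.trace (ρ t x) →
          ∑' g : (ConjClasses.mk x).carrier, ∑ i, e i i g = 0) := by
  refine ⟨fun H _ => Vale.Agent.P184.fin_index_raw H e hs he,
    fun f D x hq hadd hx => Vale.Agent.P184.quasi_raw e hs he f D hq x hadd hx, ?_⟩
  intro m ρ K x s t hb hc hne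
  have h := Vale.Agent.P184.path_raw e hs he ρ hb hc s t x
  have h2 : (Matrix.trace (ρ s x) - Matrix.trace (ρ t x))
      * ∑' g : (ConjClasses.mk x).carrier, ∑ i, e i i g = 0 := by
    rw [sub_mul, h, sub_self]
  rcases mul_eq_zero.mp h2 with h3 | h3
  · exact absurd (sub_eq_zero.mp h3) hne
  · exact h3

end Vale.Agent.Results.P184.Criteria
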