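import Vale.Agent.P184.IndMain

/-!
P184, the l1 Bass conjecture modulo commutators of finite index subgroups.

`e` is an idempotent matrix over the Banach group algebra of absolutely summable functions
on the discrete group `G` (entries `e i j : G → ℂ`, product by convolution).  The sum
`∑' g : (ConjClasses.mk (x : G)).carrier, ∑ i, e i i g` is the Hattori-Stallings coefficient
of `e` at the `G`-conjugacy class of `x`.  For every subgroup `H` of finite index there is a
finite set `F` of finite-order elements of the abelianization of `H` such that the coefficient
vanishes at the class of every `x` in `H` whose image in the abelianization of `H` is outside `F`.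
-/

namespace Vale.Agent.Results.P184.FinIndexAbel

open scoped BigOperators

theorem result {G : Type*} [Group G] (H : Subgroup G) [H.FiniteIndex] {ι : Type*} [Fintype ι]
    (e : ι → ι → G → ℂ) (hs : ∀ i j, Summable fun g => ‖e i j g‖)
    (he : ∀ i j g, ∑ k, ∑' h, e i k h * e k j (h⁻¹ * g) = e i j g) :
    ∃ F : Set (Abelianization H), F.Finite ∧ (∀ a ∈ F, IsOfFinOrder a) ∧
      ∀ x : H, Abelianization.of x ∉ F →
        ∑' g : (ConjClasses.mk (x : G)).carrier, ∑ i, e i i g = 0 :=
  Vale.Agent.P184.fin_index_raw H e hs he

end Vale.Agent.Results.P184.FinIndexAbel
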