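import Vale.Agent.P184.Quasi

/-!
P184, the l1 Bass conjecture: vanishing at classes detected by quasimorphisms.

`e` is an idempotent matrix over the Banach group algebra of absolutely summable functions
on the discrete group `G` (entries `e i j : G → ℂ`, product by convolution).  The sum
`∑' g : (ConjClasses.mk x).carrier, ∑ i, e i i g` is the Hattori-Stallings coefficient of `e`
at the conjugacy class of `x`.  If a quasimorphism `f` of `G` (defect at most `D`) is additive
on the centralizer of `x` and `f x ≠ 0`, this coefficient vanishes.
-/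

namespace Vale.Agent.Results.P184.Quasimorphism

open scoped BigOperators

theorem result {G : Type*} [Group G] {ι : Type*} [Fintype ι]
    (e : ι → ι → G → ℂ) (hs : ∀ i j, Summable fun g => ‖e i j g‖)
    (he : ∀ i j g, ∑ k, ∑' h, e i k h * e k j (h⁻¹ * g) = e i j g)
    (f : G → ℝ) (D : ℝ) (hq : ∀ g h, |f (g * h) - f g - f h| ≤ D) (x : G)
    (hadd : ∀ z w, Commute z x → Commute w x → f (z * w) = f z + f w) (hx : f x ≠ 0) :
    ∑' g : (ConjClasses.mk x).carrier, ∑ i, e i i g = 0 :=
  Vale.Agent.P184.quasi_raw e hs he f D hq x hadd hx

end Vale.Agent.Results.P184.Quasimorphism
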