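import Vale.Agent.P184.Path

/-!
P184, the l1 Bass conjecture: deformation invariance.

`e` is an idempotent matrix over the Banach group algebra of absolutely summable functions
on the discrete group `G` (entries `e i j : G → ℂ`, product by convolution).  The sum
`∑' g : (ConjClasses.mk x).carrier, ∑ i, e i i g` is the Hattori-Stallings coefficient of `e`
at the conjugacy class of `x`.  If a connected family of uniformly bounded finite-dimensional
representations of `G` has a character that is not constant at `x`, this coefficient vanishes.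
-/

namespace Vale.Agent.Results.P184.RepFamily

open scoped BigOperators

theorem result {G : Type*} [Group G] {ι μ X : Type*} [Fintype ι] [Fintype μ] [DecidableEq μ]
    [TopologicalSpace X] [PreconnectedSpace X]
    (e : ι → ι → G → ℂ) (hs : ∀ i j, Summable fun g => ‖e i j g‖)
    (he : ∀ i j g, ∑ k, ∑' h, e i k h * e k j (h⁻¹ * g) = e i j g)
    (ρ : X → G →* Matrix μ μ ℂ) (K : ℝ) (hb : ∀ s g a b, ‖ρ s g a b‖ ≤ K)
    (hc : ∀ g a b, Continuous fun s => ρ s g a b) (s t : X) (x : G)
    (hne : Matrix.trace (ρ s x) ≠ Matrix.trace (ρ t x)) :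
    ∑' g : (ConjClasses.mk x).carrier, ∑ i, e i i g = 0 := by
  have h := Vale.Agent.P184.path_raw e hs he ρ hb hc s t x
  have h2 : (Matrix.trace (ρ s x) - Matrix.trace (ρ t x))
      * ∑' g : (ConjClasses.mk x).carrier, ∑ i, e i i g = 0 := by
    rw [sub_mul, h, sub_self]
  rcases mul_eq_zero.mp h2 with h3 | h3
  · exact absurd (sub_eq_zero.mp h3) hne
  · exact h3

end Vale.Agent.Results.P184.RepFamily
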